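import Mathlib

/-!
Combinatorial core: keys of values and samples, swapped on a set of elements.
-/

namespace Vale.Agent.H89.P331

open Finset
open scoped NNReal symmDiff

section Coins

variable {ι K : Type*} [DecidableEq ι] [LinearOrder K]

/-- Value keys after swapping the elements of `Z`. -/
def swV (vk sk : ι → K) (Z : Finset ι) : ι → K := fun e => if e ∈ Z then sk e else vk e

/-- Sample keys after swapping the elements of `Z`. -/
def swS (vk sk : ι → K) (Z : Finset ι) : ι → K := fun e => if e ∈ Z then vk e else sk e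

/-- Elements of `P` whose value key beats all sample keys of `P`. -/
def topSet (P : Finset ι) (vk sk : ι → K) : Finset ι :=
  P.filter fun e => ∀ f ∈ P, sk f < vk e

/-- `e` is the lowest element of the top set. -/
def IsLow (P : Finset ι) (vk sk : ι → K) (e : ι) : Prop :=
  e ∈ topSet P vk sk ∧ ∀ e' ∈ topSet P vk sk, vk e ≤ vk e'

open Classical in
/-- Value of the lowest element of the top set (zero if the top set is empty). -/
noncomputable def lowVal (P : Finset ι) (val : K → ℝ≥0) (vk sk : ι → K) : ℝ≥0 :=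
  ∑ e ∈ P, if IsLow P vk sk e then val (vk e) else 0

/-- Total value of the top set. -/
def topSum (P : Finset ι) (val : K → ℝ≥0) (vk sk : ι → K) : ℝ≥0 :=
  ∑ e ∈ topSet P vk sk, val (vk e)

/-- Largest sample value. -/
def maxS (P : Finset ι) (val : K → ℝ≥0) (sk : ι → K) : ℝ≥0 :=
  P.sup fun f => val (sk f)

theorem mem_topSet {P : Finset ι} {vk sk : ι → K} {e : ι} :
    e ∈ topSet P vk sk ↔ e ∈ P ∧ ∀ f ∈ P, sk f < vk e := by
  unfold topSet
  exact Finset.mem_filter

theorem swV_symmDiff (vk sk : ι → K) (Z W : Finset ι) :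
    swV vk sk (Z ∆ W) = swV (swV vk sk Z) (swS vk sk Z) W := by
  funext e
  simp only [swV, swS, Finset.mem_symmDiff]
  by_cases h1 : e ∈ Z <;> by_cases h2 : e ∈ W <;> simp [h1, h2]

theorem swS_symmDiff (vk sk : ι → K) (Z W : Finset ι) :
    swS vk sk (Z ∆ W) = swS (swV vk sk Z) (swS vk sk Z) W := by
  funext e
  simp only [swV, swS, Finset.mem_symmDiff]
  by_cases h1 : e ∈ Z <;> by_cases h2 : e ∈ W <;> simp [h1, h2]

theorem symmDiff_singleton_involutive (f : ι) (Z : Finset ι) : (Z ∆ {f}) ∆ {f} = Z := by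
  simp

/-- Single flip: if `e` is in the top set but not lowest, flipping the next lower element
of the top set makes `e` lowest. -/
theorem flip_facts (P : Finset ι) (v s : ι → K) (e f : ι)
    (hf : f ∈ topSet P v s) (hfe : v f < v e) (he : e ∈ topSet P v s)
    (hmax : ∀ e' ∈ topSet P v s, v e' < v e → v e' ≤ v f) :
    IsLow P (swV v s {f}) (swS v s {f}) e ∧ swV v s {f} e = v e ∧
      ∀ x ∈ P, x ≠ f → swS v s {f} x < swS v s {f} f := by
  have hne : e ≠ f := fun h => by subst h; exact lt_irrefl _ hfe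
  have hfP : f ∈ P := (Finset.mem_filter.mp hf).1
  have hfs : ∀ x ∈ P, s x < v f := (Finset.mem_filter.mp hf).2
  have heP : e ∈ P := (Finset.mem_filter.mp he).1
  have hes : ∀ x ∈ P, s x < v e := (Finset.mem_filter.mp he).2
  have hve : swV v s {f} e = v e := by simp [swV, hne]
  have hetop : e ∈ topSet P (swV v s {f}) (swS v s {f}) := by
    refine Finset.mem_filter.mpr ⟨heP, fun x hx => ?_⟩
    rw [hve]
    by_cases hxf : x = f
    · subst hxf; simpa [swS] using hfe
    · simpa [swS, hxf] using hes x hx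
  refine ⟨⟨hetop, fun e' he' => ?_⟩, hve, fun x hx hxf => ?_⟩
  · rw [hve]
    by_contra hlt
    rw [not_le] at hlt
    have he'P : e' ∈ P := (Finset.mem_filter.mp he').1
    have he's : ∀ x ∈ P, swS v s {f} x < swV v s {f} e' := (Finset.mem_filter.mp he').2
    have h1 : v f < swV v s {f} e' := by simpa [swS] using he's f hfP
    by_cases he'f : e' = f
    · subst he'f
      have h2 : v e' < s e' := by simpa [swV] using h1
      exact lt_asymm h2 (hfs e' hfP)
    · have hv' : swV v s {f} e' = v e' := by simp [swV, he'f]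
      rw [hv'] at h1 hlt
      have he'top : e' ∈ topSet P v s := by
        refine Finset.mem_filter.mpr ⟨he'P, fun x hx => ?_⟩
        by_cases hxf : x = f
        · subst hxf; exact lt_trans (hfs x hx) h1
        · have := he's x hx
          simpa [swS, hxf, hv'] using this
      exact absurd (hmax e' he'top hlt) (not_le.mpr h1)
  · simpa [swS, hxf] using hfs x hx

theorem lowVal_le (P : Finset ι) (val : K → ℝ≥0) (hval : Monotone val) (v s : ι → K)
    (hinj : ∀ x ∈ P, ∀ y ∈ P, v x = v y → x = y) (e : ι) (he : e ∈ topSet P v s) :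
    lowVal P val v s ≤ val (v e) := by
  classical
  unfold lowVal
  by_cases h : ∃ x ∈ P, IsLow P v s x
  · obtain ⟨x0, hx0P, hx0⟩ := h
    have huniq : ∀ x ∈ P, x ≠ x0 → (if IsLow P v s x then val (v x) else 0) = 0 := by
      intro x hxP hne
      rw [if_neg]
      intro hx
      apply hne
      exact hinj x hxP x0 hx0P (le_antisymm (hx.2 x0 hx0.1) (hx0.2 x hx.1))
    rw [Finset.sum_eq_single_of_mem x0 hx0P huniq, if_pos hx0]
    exact hval (hx0.2 e he)
  · have h0 : ∑ x ∈ P, (if IsLow P v s x then val (v x) else 0) = 0 := by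
      refine Finset.sum_eq_zero fun x hx => ?_
      rw [if_neg]
      intro hlow
      exact h ⟨x, hx, hlow⟩
    rw [h0]
    positivity

theorem lowVal_eq_zero (P : Finset ι) (val : K → ℝ≥0) (v s : ι → K)
    (h : ∀ e ∈ P, e ∉ topSet P v s) : lowVal P val v s = 0 := by
  classical
  unfold lowVal
  refine Finset.sum_eq_zero fun x hx => ?_
  rw [if_neg]
  intro hlow
  exact h x hx hlow.1

theorem exists_next_lower (P : Finset ι) (v s : ι → K) (e : ι)
    (hnl : ¬ IsLow P v s e) (he : e ∈ topSet P v s) :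
    ∃ f, f ∈ topSet P v s ∧ v f < v e ∧ ∀ e' ∈ topSet P v s, v e' < v e → v e' ≤ v f := by
  have hne : ((topSet P v s).filter fun e' => v e' < v e).Nonempty := by
    by_contra hcon
    rw [Finset.not_nonempty_iff_eq_empty] at hcon
    apply hnl
    refine ⟨he, fun e' he' => ?_⟩
    by_contra hlt
    have : e' ∈ (topSet P v s).filter fun e' => v e' < v e :=
      Finset.mem_filter.mpr ⟨he', not_le.mp hlt⟩
    rw [hcon] at this
    exact absurd this (Finset.notMem_empty _)
  obtain ⟨f, hf, hfmax⟩ := Finset.exists_max_image _ v hne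
  rw [Finset.mem_filter] at hf
  exact ⟨f, hf.1, hf.2, fun e' he' hlt => hfmax e' (Finset.mem_filter.mpr ⟨he', hlt⟩)⟩

open Classical in
/-- The coin set obtained from `Z` by flipping the next lower element of the top set. -/
noncomputable def flipNext (P : Finset ι) (vk sk : ι → K) (e : ι) (Z : Finset ι) : Finset ι :=
  if h : ¬ IsLow P (swV vk sk Z) (swS vk sk Z) e ∧ e ∈ topSet P (swV vk sk Z) (swS vk sk Z) then
    Z ∆ {Classical.choose (exists_next_lower P (swV vk sk Z) (swS vk sk Z) e h.1 h.2)}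
  else Z

theorem flipNext_spec (P : Finset ι) (vk sk : ι → K) (e : ι) (Z : Finset ι)
    (hnl : ¬ IsLow P (swV vk sk Z) (swS vk sk Z) e)
    (he : e ∈ topSet P (swV vk sk Z) (swS vk sk Z)) :
    ∃ f, f ∈ P ∧ flipNext P vk sk e Z = Z ∆ {f} ∧
      IsLow P (swV vk sk (Z ∆ {f})) (swS vk sk (Z ∆ {f})) e ∧
      swV vk sk (Z ∆ {f}) e = swV vk sk Z e ∧
      ∀ x ∈ P, x ≠ f → swS vk sk (Z ∆ {f}) x < swS vk sk (Z ∆ {f}) f := by
  have hspec := Classical.choose_spec (exists_next_lower P (swV vk sk Z) (swS vk sk Z) e hnl he)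
  refine ⟨Classical.choose (exists_next_lower P (swV vk sk Z) (swS vk sk Z) e hnl he),
    (Finset.mem_filter.mp hspec.1).1, ?_, ?_⟩
  · unfold flipNext
    rw [dif_pos ⟨hnl, he⟩]
  · rw [swV_symmDiff, swS_symmDiff]
    exact flip_facts P _ _ e _ hspec.1 hspec.2.1 he hspec.2.2

/-- Per element: the top-set count is at most twice the lowest count. -/
theorem sum_top_le_two_low [Fintype ι] (P : Finset ι) (val : K → ℝ≥0) (vk sk : ι → K) (e : ι) :
    (∑ Z : Finset ι, if e ∈ topSet P (swV vk sk Z) (swS vk sk Z) then val (swV vk sk Z e) else 0)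
      ≤ 2 * ∑ Z : Finset ι, open Classical in
          if IsLow P (swV vk sk Z) (swS vk sk Z) e then val (swV vk sk Z e) else 0 := by
  classical
  set A : Finset (Finset ι) :=
    Finset.univ.filter fun Z => e ∈ topSet P (swV vk sk Z) (swS vk sk Z) with hA
  set B : Finset (Finset ι) :=
    Finset.univ.filter fun Z => IsLow P (swV vk sk Z) (swS vk sk Z) e with hB
  have hBA : B ⊆ A := by
    intro Z hZ
    rw [hB, Finset.mem_filter] at hZ
    rw [hA, Finset.mem_filter]
    exact ⟨Finset.mem_univ _, hZ.2.1⟩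
  have hL : (∑ Z : Finset ι,
      if e ∈ topSet P (swV vk sk Z) (swS vk sk Z) then val (swV vk sk Z e) else 0)
      = ∑ Z ∈ A, val (swV vk sk Z e) := by
    rw [hA, Finset.sum_filter]
  have hR : (∑ Z : Finset ι,
      if IsLow P (swV vk sk Z) (swS vk sk Z) e then val (swV vk sk Z e) else 0)
      = ∑ Z ∈ B, val (swV vk sk Z e) := by
    rw [hB, Finset.sum_filter]
  rw [hL, hR, ← Finset.sum_sdiff hBA, two_mul]
  refine add_le_add ?_ le_rfl
  have hmem : ∀ Z ∈ A \ B, ¬ IsLow P (swV vk sk Z) (swS vk sk Z) e ∧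
      e ∈ topSet P (swV vk sk Z) (swS vk sk Z) := by
    intro Z hZ
    rw [Finset.mem_sdiff, hA, hB, Finset.mem_filter, Finset.mem_filter] at hZ
    exact ⟨fun h => hZ.2 ⟨Finset.mem_univ _, h⟩, hZ.1.2⟩
  have himg : (A \ B).image (flipNext P vk sk e) ⊆ B := by
    intro W hW
    rw [Finset.mem_image] at hW
    obtain ⟨Z, hZ, rfl⟩ := hW
    obtain ⟨f, -, hf, hlow, -, -⟩ := flipNext_spec P vk sk e Z (hmem Z hZ).1 (hmem Z hZ).2
    rw [hf, hB, Finset.mem_filter]
    exact ⟨Finset.mem_univ _, hlow⟩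
  have hinj : Set.InjOn (flipNext P vk sk e) (↑(A \ B) : Set (Finset ι)) := by
    intro Z1 hZ1 Z2 hZ2 heq
    rw [Finset.mem_coe] at hZ1 hZ2
    obtain ⟨f1, hf1P, hf1, -, -, hs1⟩ :=
      flipNext_spec P vk sk e Z1 (hmem Z1 hZ1).1 (hmem Z1 hZ1).2
    obtain ⟨f2, hf2P, hf2, -, -, hs2⟩ :=
      flipNext_spec P vk sk e Z2 (hmem Z2 hZ2).1 (hmem Z2 hZ2).2
    have hW : Z1 ∆ {f1} = Z2 ∆ {f2} := by rw [← hf1, ← hf2, heq]
    rw [← hW] at hs2
    have hff : f1 = f2 := by
      by_contra hne
      have h1 := hs1 f2 hf2P (fun h => hne h.symm)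
      have h2 := hs2 f1 hf1P hne
      exact lt_asymm h1 h2
    subst hff
    calc Z1 = (Z1 ∆ {f1}) ∆ {f1} := (symmDiff_singleton_involutive f1 Z1).symm
      _ = (Z2 ∆ {f1}) ∆ {f1} := by rw [hW]
      _ = Z2 := symmDiff_singleton_involutive f1 Z2
  calc ∑ Z ∈ A \ B, val (swV vk sk Z e)
      = ∑ Z ∈ A \ B, val (swV vk sk (flipNext P vk sk e Z) e) := by
        refine Finset.sum_congr rfl fun Z hZ => ?_
        obtain ⟨f, -, hf, -, hv, -⟩ := flipNext_spec P vk sk e Z (hmem Z hZ).1 (hmem Z hZ).2
        rw [hf, hv]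
    _ = ∑ W ∈ (A \ B).image (flipNext P vk sk e), val (swV vk sk W e) :=
        (Finset.sum_image (f := fun W => val (swV vk sk W e)) hinj).symm
    _ ≤ ∑ W ∈ B, val (swV vk sk W e) := Finset.sum_le_sum_of_subset himg

/-- Summed over all coin sets, the top-set sum is at most twice the lowest value. -/
theorem sum_topSum_le [Fintype ι] (P : Finset ι) (val : K → ℝ≥0) (vk sk : ι → K) :
    ∑ Z : Finset ι, topSum P val (swV vk sk Z) (swS vk sk Z)
      ≤ 2 * ∑ Z : Finset ι, lowVal P val (swV vk sk Z) (swS vk sk Z) := by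
  classical
  have h1 : ∀ Z : Finset ι, topSum P val (swV vk sk Z) (swS vk sk Z)
      = ∑ e ∈ P, if e ∈ topSet P (swV vk sk Z) (swS vk sk Z) then val (swV vk sk Z e) else 0 := by
    intro Z
    unfold topSum
    rw [Finset.sum_ite_mem]
    congr 1
    ext e
    simp only [Finset.mem_inter, topSet, Finset.mem_filter]
    tauto
  simp_rw [h1]
  unfold lowVal
  rw [Finset.sum_comm, Finset.sum_comm (s := Finset.univ) (t := P), Finset.mul_sum]
  refine Finset.sum_le_sum fun e _ => ?_
  exact sum_top_le_two_low P val vk sk e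

theorem distinct_sw (P : Finset ι) (vk sk : ι → K)
    (hd : ∀ e ∈ P, ∀ f ∈ P, vk e ≠ sk f ∧ (e ≠ f → vk e ≠ vk f ∧ sk e ≠ sk f)) (Z : Finset ι) :
    ∀ e ∈ P, ∀ f ∈ P, swV vk sk Z e ≠ swS vk sk Z f ∧
      (e ≠ f → swV vk sk Z e ≠ swV vk sk Z f ∧ swS vk sk Z e ≠ swS vk sk Z f) := by
  intro e he f hf
  have h1 := hd e he f hf
  have h2 := hd f hf e he
  have h3 := hd e he e he
  by_cases hez : e ∈ Z <;> by_cases hfz : f ∈ Z
  · simp only [swV, swS, hez, hfz, if_true]
    exact ⟨fun h => h2.1 h.symm, fun hne => ⟨(h1.2 hne).2, (h1.2 hne).1⟩⟩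
  · simp only [swV, swS, hez, hfz, if_true, if_false]
    have hne : e ≠ f := fun h => hfz (h ▸ hez)
    exact ⟨(h1.2 hne).2, fun _ => ⟨fun h => h2.1 h.symm, h1.1⟩⟩
  · simp only [swV, swS, hez, hfz, if_true, if_false]
    have hne : e ≠ f := fun h => hez (h ▸ hfz)
    exact ⟨(h1.2 hne).1, fun _ => ⟨h1.1, fun h => h2.1 h.symm⟩⟩
  · simp only [swV, swS, hez, hfz, if_false]
    exact ⟨h1.1, fun hne => h1.2 hne⟩

/-- Pointwise: the largest sample value is at most the lowest top value plus the top sum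
after flipping the owner of the overall largest key. -/
theorem maxS_le_low_add_top (P : Finset ι) (val : K → ℝ≥0) (hval : Monotone val) (v s : ι → K)
    (hd : ∀ e ∈ P, ∀ f ∈ P, v e ≠ s f ∧ (e ≠ f → v e ≠ v f ∧ s e ≠ s f))
    (m : ι) (hm : m ∈ P) (hmax : ∀ e ∈ P, max (v e) (s e) ≤ max (v m) (s m)) :
    maxS P val s ≤ lowVal P val v s + topSum P val (swV v s {m}) (swS v s {m}) := by
  classical
  by_cases hne : (topSet P v s).Nonempty
  · obtain ⟨e0, he0, hmin⟩ := Finset.exists_min_image _ v hne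
    have hlow : IsLow P v s e0 := ⟨he0, hmin⟩
    have he0P : e0 ∈ P := (Finset.mem_filter.mp he0).1
    have h1 : val (v e0) ≤ lowVal P val v s := by
      unfold lowVal
      have := Finset.single_le_sum (f := fun e => if IsLow P v s e then val (v e) else 0)
        (fun _ _ => by positivity) he0P
      simpa [hlow] using this
    have h2 : maxS P val s ≤ val (v e0) := by
      unfold maxS
      refine Finset.sup_le fun f hf => hval (le_of_lt ?_)
      exact (Finset.mem_filter.mp he0).2 f hf
    exact le_trans h2 (le_trans h1 (le_add_right le_rfl))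
  · have hlt : v m < s m := by
      by_contra hcon
      apply hne
      have hsm : s m < v m := lt_of_le_of_ne (not_lt.mp hcon) (fun h => (hd m hm m hm).1 h.symm)
      refine ⟨m, Finset.mem_filter.mpr ⟨hm, fun f hf => ?_⟩⟩
      have : s f ≤ v m := by
        calc s f ≤ max (v f) (s f) := le_max_right _ _
          _ ≤ max (v m) (s m) := hmax f hf
          _ = v m := max_eq_left (le_of_lt hsm)
      exact lt_of_le_of_ne this (fun h => (hd m hm f hf).1 h.symm)
    have hle : ∀ f ∈ P, s f ≤ s m := by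
      intro f hf
      calc s f ≤ max (v f) (s f) := le_max_right _ _
        _ ≤ max (v m) (s m) := hmax f hf
        _ = s m := max_eq_right (le_of_lt hlt)
    have hmtop : m ∈ topSet P (swV v s {m}) (swS v s {m}) := by
      refine Finset.mem_filter.mpr ⟨hm, fun f hf => ?_⟩
      have hvm : swV v s {m} m = s m := by simp [swV]
      rw [hvm]
      by_cases hfm : f = m
      · subst hfm; simpa [swS] using hlt
      · have : swS v s {m} f = s f := by simp [swS, hfm]
        rw [this]
        exact lt_of_le_of_ne (hle f hf) (fun h => ((hd f hf m hm).2 hfm).2 h)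
    have h1 : val (s m) ≤ topSum P val (swV v s {m}) (swS v s {m}) := by
      unfold topSum
      have := Finset.single_le_sum (f := fun e => val (swV v s {m} e))
        (fun _ _ => by positivity) hmtop
      simpa [swV] using this
    have h2 : maxS P val s ≤ val (s m) := by
      unfold maxS
      exact Finset.sup_le fun f hf => hval (hle f hf)
    exact le_trans h2 (le_trans h1 (le_add_left le_rfl))

/-- Summed over all coin sets, the largest sample value is at most three times the lowest
top value. -/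
theorem sum_maxS_le [Fintype ι] (P : Finset ι) (val : K → ℝ≥0) (hval : Monotone val)
    (vk sk : ι → K)
    (hd : ∀ e ∈ P, ∀ f ∈ P, vk e ≠ sk f ∧ (e ≠ f → vk e ≠ vk f ∧ sk e ≠ sk f)) :
    ∑ Z : Finset ι, maxS P val (swS vk sk Z)
      ≤ 3 * ∑ Z : Finset ι, lowVal P val (swV vk sk Z) (swS vk sk Z) := by
  classical
  by_cases hP : P.Nonempty
  · obtain ⟨m, hm, hmax⟩ := Finset.exists_max_image P (fun e => max (vk e) (sk e)) hP
    have hpt : ∀ Z : Finset ι, maxS P val (swS vk sk Z)
        ≤ lowVal P val (swV vk sk Z) (swS vk sk Z)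
          + topSum P val (swV vk sk (Z ∆ {m})) (swS vk sk (Z ∆ {m})) := by
      intro Z
      rw [swV_symmDiff, swS_symmDiff]
      refine maxS_le_low_add_top P val hval _ _ (distinct_sw P vk sk hd Z) m hm ?_
      intro e he
      have h1 : ∀ x, max (swV vk sk Z x) (swS vk sk Z x) = max (vk x) (sk x) := by
        intro x
        by_cases hx : x ∈ Z
        · simp [swV, swS, hx, max_comm]
        · simp [swV, swS, hx]
      rw [h1, h1]
      exact hmax e he
    have hre : ∑ Z : Finset ι, topSum P val (swV vk sk (Z ∆ {m})) (swS vk sk (Z ∆ {m}))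
        = ∑ Z : Finset ι, topSum P val (swV vk sk Z) (swS vk sk Z) :=
      Equiv.sum_comp (Function.Involutive.toPerm (fun Z : Finset ι => Z ∆ {m})
        (symmDiff_singleton_involutive m))
        (fun Z => topSum P val (swV vk sk Z) (swS vk sk Z))
    calc ∑ Z : Finset ι, maxS P val (swS vk sk Z)
        ≤ ∑ Z : Finset ι, (lowVal P val (swV vk sk Z) (swS vk sk Z)
          + topSum P val (swV vk sk (Z ∆ {m})) (swS vk sk (Z ∆ {m}))) :=
          Finset.sum_le_sum fun Z _ => hpt Z
      _ = ∑ Z : Finset ι, lowVal P val (swV vk sk Z) (swS vk sk Z)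
          + ∑ Z : Finset ι, topSum P val (swV vk sk Z) (swS vk sk Z) := by
          rw [Finset.sum_add_distrib, hre]
      _ ≤ ∑ Z : Finset ι, lowVal P val (swV vk sk Z) (swS vk sk Z)
          + 2 * ∑ Z : Finset ι, lowVal P val (swV vk sk Z) (swS vk sk Z) :=
          add_le_add le_rfl (sum_topSum_le P val vk sk)
      _ = 3 * ∑ Z : Finset ι, lowVal P val (swV vk sk Z) (swS vk sk Z) := by ring
  · rw [Finset.not_nonempty_iff_eq_empty] at hP
    subst hP
    simp [maxS]

end Coins

end Vale.Agent.H89.P331
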