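import Mathlib

/-!
Exchangeability: swapping sample and value on a set of elements preserves the joint law.
-/

namespace Vale.Agent.H89.P331

open MeasureTheory
open scoped NNReal ENNReal

section Swap

variable {E : Type} [Fintype E] [DecidableEq E]

/-- Swap sample and value of the elements of `Z`. -/
def swapPair (Z : Finset E) (p : (E → ℝ≥0) × (E → ℝ≥0)) : (E → ℝ≥0) × (E → ℝ≥0) :=
  (fun e => if e ∈ Z then p.2 e else p.1 e, fun e => if e ∈ Z then p.1 e else p.2 e)

/-- Flip the tie-breaking bits of the elements of `Z`. -/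
def flipBits (Z : Finset E) (b : E → Bool) : E → Bool :=
  fun e => if e ∈ Z then !b e else b e

theorem flipBits_involutive (Z : Finset E) : Function.Involutive (flipBits Z) := by
  intro b
  funext e
  by_cases h : e ∈ Z <;> simp [flipBits, h]

/-- The swap as a measurable equivalence. -/
noncomputable def swapEquiv (Z : Finset E) :
    ((E → ℝ≥0) × (E → ℝ≥0)) ≃ᵐ ((E → ℝ≥0) × (E → ℝ≥0)) :=
  (MeasurableEquiv.arrowProdEquivProdArrow ℝ≥0 ℝ≥0 E).symm.trans
    ((MeasurableEquiv.piCongrRight fun e : E =>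
        if e ∈ Z then (MeasurableEquiv.prodComm : ℝ≥0 × ℝ≥0 ≃ᵐ ℝ≥0 × ℝ≥0)
        else MeasurableEquiv.refl (ℝ≥0 × ℝ≥0)).trans
      (MeasurableEquiv.arrowProdEquivProdArrow ℝ≥0 ℝ≥0 E))

theorem swapEquiv_apply (Z : Finset E) (p : (E → ℝ≥0) × (E → ℝ≥0)) :
    swapEquiv Z p = swapPair Z p := by
  unfold swapEquiv swapPair
  ext e
  · by_cases h : e ∈ Z <;>
      simp [MeasurableEquiv.arrowProdEquivProdArrow, Equiv.arrowProdEquivProdArrow,
        MeasurableEquiv.piCongrRight, Equiv.piCongrRight, MeasurableEquiv.prodComm, h]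
  · by_cases h : e ∈ Z <;>
      simp [MeasurableEquiv.arrowProdEquivProdArrow, Equiv.arrowProdEquivProdArrow,
        MeasurableEquiv.piCongrRight, Equiv.piCongrRight, MeasurableEquiv.prodComm, h]

theorem swapEquiv_measurePreserving (D : E → Measure ℝ≥0) [∀ e, IsProbabilityMeasure (D e)]
    (Z : Finset E) :
    MeasurePreserving (swapEquiv Z) ((Measure.pi D).prod (Measure.pi D))
      ((Measure.pi D).prod (Measure.pi D)) := by
  have h1 := measurePreserving_arrowProdEquivProdArrow ℝ≥0 ℝ≥0 E D D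
  have h2 : MeasurePreserving
      (MeasurableEquiv.piCongrRight fun e : E =>
        if e ∈ Z then (MeasurableEquiv.prodComm : ℝ≥0 × ℝ≥0 ≃ᵐ ℝ≥0 × ℝ≥0)
        else MeasurableEquiv.refl (ℝ≥0 × ℝ≥0))
      (Measure.pi fun e => (D e).prod (D e)) (Measure.pi fun e => (D e).prod (D e)) := by
    have := measurePreserving_pi (fun e => (D e).prod (D e)) (fun e => (D e).prod (D e))
      (f := fun e : E => ((if e ∈ Z then (MeasurableEquiv.prodComm : ℝ≥0 × ℝ≥0 ≃ᵐ ℝ≥0 × ℝ≥0)
        else MeasurableEquiv.refl (ℝ≥0 × ℝ≥0)) : ℝ≥0 × ℝ≥0 → ℝ≥0 × ℝ≥0))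
      (fun e => by
        by_cases h : e ∈ Z
        · simp only [h, if_true]
          exact Measure.measurePreserving_swap
        · simp only [h, if_false]
          exact MeasurePreserving.id _)
    convert this using 1
    funext a i
    by_cases h : i ∈ Z <;> simp [MeasurableEquiv.piCongrRight, Equiv.piCongrRight, h]
  unfold swapEquiv
  exact h1.comp (h2.comp h1.symm)

/-- Exchangeability of samples and values, with the tie-breaking bits flipped along. -/
theorem sum_lintegral_swap (D : E → Measure ℝ≥0) [∀ e, IsProbabilityMeasure (D e)]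
    (Z : Finset E) (F : (E → ℝ≥0) × (E → ℝ≥0) → (E → Bool) → ℝ≥0∞) :
    ∑ b : E → Bool, ∫⁻ p, F (swapPair Z p) (flipBits Z b) ∂((Measure.pi D).prod (Measure.pi D))
      = ∑ b : E → Bool, ∫⁻ p, F p b ∂((Measure.pi D).prod (Measure.pi D)) := by
  have h1 : ∀ b : E → Bool,
      ∫⁻ p, F (swapPair Z p) (flipBits Z b) ∂((Measure.pi D).prod (Measure.pi D))
        = ∫⁻ p, F p (flipBits Z b) ∂((Measure.pi D).prod (Measure.pi D)) := by
    intro b
    have := (swapEquiv_measurePreserving D Z).lintegral_comp_emb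
      (swapEquiv Z).measurableEmbedding (fun p => F p (flipBits Z b))
    simp only [swapEquiv_apply] at this
    exact this
  simp_rw [h1]
  exact Equiv.sum_comp (Function.Involutive.toPerm (flipBits Z) (flipBits_involutive Z))
    (fun b => ∫⁻ p, F p b ∂((Measure.pi D).prod (Measure.pi D)))

end Swap

end Vale.Agent.H89.P331
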