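import Vale.Agent.H89.P331.Rule
import Vale.Agent.H89.P331.Swap

/-!
Measurability of the auxiliary functions, the symmetrization step, and the final estimate.
-/

namespace Vale.Agent.H89.P331

open MeasureTheory Finset
open scoped NNReal ENNReal

section Main

open Classical

variable {E : Type} [Fintype E]

theorem measurable_finset_sup {α ι : Type*} [MeasurableSpace α] (t : Finset ι)
    (f : ι → α → ℝ≥0) (hf : ∀ i ∈ t, Measurable (f i)) :
    Measurable (fun x => t.sup (fun i => f i x)) := by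
  induction t using Finset.induction_on with
  | empty => simp
  | insert i t hi ih =>
    simp only [Finset.sup_insert]
    exact (hf i (Finset.mem_insert_self _ _)).sup
      (ih (fun j hj => hf j (Finset.mem_insert_of_mem hj)))

theorem sup_filter_eq {ι : Type*} (t : Finset ι) (P : ι → Prop) [DecidablePred P]
    (g : ι → ℝ≥0) :
    (t.filter P).sup g = t.sup (fun i => if P i then g i else 0) := by
  apply le_antisymm
  · refine Finset.sup_le fun i hi => ?_
    rw [Finset.mem_filter] at hi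
    have := Finset.le_sup (f := fun i => if P i then g i else 0) hi.1
    simpa [hi.2] using this
  · refine Finset.sup_le fun i hi => ?_
    by_cases hP : P i
    · simp only [hP, if_true]
      exact Finset.le_sup (f := g) (Finset.mem_filter.mpr ⟨hi, hP⟩)
    · simp [hP]

theorem measurable_maxSample (M : Matroid E) :
    Measurable (fun s : E → ℝ≥0 => maxSample M s) := by
  unfold maxSample
  exact measurable_finset_sup (nl M) (fun (f : E) (s : E → ℝ≥0) => s f)
    (fun f _ => measurable_pi_apply f)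

theorem measurable_opt (M : Matroid E) : Measurable (fun v : E → ℝ≥0 => opt M v) := by
  unfold opt
  refine measurable_finset_sup _ (fun (I : Finset E) (v : E → ℝ≥0) => ∑ e ∈ I, v e)
    (fun I _ => ?_)
  exact Finset.measurable_sum I (fun e _ => measurable_pi_apply e)

theorem measurable_greedyVal (M : Matroid E) (j : ℕ) :
    Measurable (fun p : (E → ℝ≥0) × (E → ℝ≥0) => greedyVal M j p.1 p.2) := by
  unfold greedyVal
  simp_rw [sup_filter_eq]
  have hT : Measurable (fun p : (E → ℝ≥0) × (E → ℝ≥0) => maxSample M p.1) :=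
    (measurable_maxSample M).comp measurable_fst
  refine measurable_finset_sup _ _ (fun I _ => ?_)
  refine Measurable.ite ?_ ?_ measurable_const
  · rw [measurableSet_setOfPred]
    fun_prop
  · fun_prop

theorem measurable_lowVal (M : Matroid E) (b : E → Bool) :
    Measurable (fun p : (E → ℝ≥0) × (E → ℝ≥0) =>
      lowVal (nl M) keyVal (vkey p.2 b) (skey p.1 b)) := by
  unfold lowVal
  refine Finset.measurable_sum _ (fun e _ => ?_)
  refine Measurable.ite ?_ ?_ measurable_const
  · rw [measurableSet_setOfPred]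
    simp only [IsLow, mem_topSet, skey, vkey, Prod.Lex.toLex_lt_toLex, Prod.Lex.toLex_le_toLex]
    fun_prop
  · simp only [keyVal, vkey]
    fun_prop

theorem measurable_swapPair (Z : Finset E) : Measurable (swapPair Z) := by
  have h : swapPair Z = ⇑(swapEquiv Z) := funext (fun p => (swapEquiv_apply Z p).symm)
  rw [h]
  exact (swapEquiv Z).measurable

theorem theRule_measurable (M : Matroid E) (L : ℕ) : IsMeasurableRule (theRule M L) := by
  intro r l A
  cases l with
  | nil => exact measurable_const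
  | cons e rest =>
    obtain ⟨b, m, j⟩ := r
    cases m
    swap
    · simp only [theRule, List.map_cons, if_true]
      apply measurable_to_bool
      have : (fun p : (E → ℝ≥0) × (E → ℝ≥0) =>
          decide (A = ∅ ∧ e ∈ nl M ∧
            ∀ f ∈ nl M, skey p.1 b f < (toLex (p.2 e, toLex (idx e, b e)) : Key))) ⁻¹' {true}
          = {p | A = ∅ ∧ e ∈ nl M ∧
            ∀ f ∈ nl M, skey p.1 b f < (toLex (p.2 e, toLex (idx e, b e)) : Key)} := by
        ext p; simp
      rw [this, measurableSet_setOfPred]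
      simp only [skey, Prod.Lex.toLex_lt_toLex]
      fun_prop
    · simp only [theRule, List.map_cons, Bool.false_eq_true, if_false]
      apply measurable_to_bool
      have : (fun p : (E → ℝ≥0) × (E → ℝ≥0) =>
          decide (maxSample M p.1 ≤ 2 ^ (j : ℕ) * p.2 e)) ⁻¹' {true}
          = {p | maxSample M p.1 ≤ 2 ^ (j : ℕ) * p.2 e} := by
        ext p; simp
      rw [this, measurableSet_setOfPred]
      have hT : Measurable (fun p : (E → ℝ≥0) × (E → ℝ≥0) => maxSample M p.1) :=
        (measurable_maxSample M).comp measurable_fst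
      fun_prop

theorem le_lintegral_finset_sum' {α ι : Type*} [MeasurableSpace α] (μ : Measure α)
    (t : Finset ι) (f : ι → α → ℝ≥0∞) :
    ∑ i ∈ t, ∫⁻ a, f i a ∂μ ≤ ∫⁻ a, ∑ i ∈ t, f i a ∂μ := by
  induction t using Finset.induction_on with
  | empty => simp
  | insert i t hi ih =>
    simp only [Finset.sum_insert hi]
    exact le_trans (add_le_add le_rfl ih) (le_lintegral_add _ _)

theorem vkey_swap (s v : E → ℝ≥0) (b : E → Bool) (Z : Finset E) :
    vkey (swapPair Z (s, v)).2 (flipBits Z b) = swV (vkey v b) (skey s b) Z := by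
  funext e
  by_cases h : e ∈ Z <;> simp [vkey, skey, swapPair, flipBits, swV, h]

theorem skey_swap (s v : E → ℝ≥0) (b : E → Bool) (Z : Finset E) :
    skey (swapPair Z (s, v)).1 (flipBits Z b) = swS (vkey v b) (skey s b) Z := by
  funext e
  by_cases h : e ∈ Z <;> simp [vkey, skey, swapPair, flipBits, swS, h]

theorem keys_distinct (M : Matroid E) (s v : E → ℝ≥0) (b : E → Bool) :
    ∀ e ∈ nl M, ∀ f ∈ nl M, vkey v b e ≠ skey s b f ∧
      (e ≠ f → vkey v b e ≠ vkey v b f ∧ skey s b e ≠ skey s b f) := by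
  intro e _ f _
  refine ⟨fun h => ?_, fun hne => ⟨fun h => hne (vkey_injective v b h), fun h => ?_⟩⟩
  · unfold vkey skey at h
    have h1 := congrArg (fun k : Key => (ofLex (ofLex k).2).1) h
    have hef : e = f := idx_injective (by simpa using h1)
    subst hef
    have h2 := congrArg (fun k : Key => (ofLex (ofLex k).2).2) h
    simp at h2
  · unfold skey at h
    have h1 := congrArg (fun k : Key => (ofLex (ofLex k).2).1) h
    exact hne (idx_injective (by simpa using h1))

/-- Symmetrization: a pointwise inequality between sums over all swaps gives the inequality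
between expectations. -/
theorem symmetrize (D : E → Measure ℝ≥0) [∀ e, IsProbabilityMeasure (D e)]
    (F G : (E → ℝ≥0) × (E → ℝ≥0) → (E → Bool) → ℝ≥0∞) (C : ℝ≥0∞) (hC : C ≠ ∞)
    (hG : ∀ b, Measurable (fun p => G p b))
    (hpt : ∀ p b, ∑ Z : Finset E, F (swapPair Z p) (flipBits Z b)
      ≤ C * ∑ Z : Finset E, G (swapPair Z p) (flipBits Z b)) :
    ∑ b : E → Bool, ∫⁻ p, F p b ∂((Measure.pi D).prod (Measure.pi D))
      ≤ C * ∑ b : E → Bool, ∫⁻ p, G p b ∂((Measure.pi D).prod (Measure.pi D)) := by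
  set μ := (Measure.pi D).prod (Measure.pi D) with hμ
  set N : ℝ≥0∞ := (Fintype.card (Finset E) : ℝ≥0∞) with hN
  have hN0 : N ≠ 0 := by
    rw [hN]
    exact_mod_cast Fintype.card_ne_zero
  have hNt : N ≠ ∞ := by
    rw [hN]
    exact ENNReal.natCast_ne_top _
  have hF : N * ∑ b : E → Bool, ∫⁻ p, F p b ∂μ
      = ∑ b : E → Bool, ∑ Z : Finset E, ∫⁻ p, F (swapPair Z p) (flipBits Z b) ∂μ := by
    have hsw : ∀ Z : Finset E, ∑ b : E → Bool, ∫⁻ p, F (swapPair Z p) (flipBits Z b) ∂μ
        = ∑ b : E → Bool, ∫⁻ p, F p b ∂μ := fun Z => sum_lintegral_swap D Z F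
    rw [Finset.sum_comm]
    simp_rw [hsw]
    rw [Finset.sum_const, Finset.card_univ, nsmul_eq_mul]
  have hG' : N * ∑ b : E → Bool, ∫⁻ p, G p b ∂μ
      = ∑ b : E → Bool, ∑ Z : Finset E, ∫⁻ p, G (swapPair Z p) (flipBits Z b) ∂μ := by
    have hsw : ∀ Z : Finset E, ∑ b : E → Bool, ∫⁻ p, G (swapPair Z p) (flipBits Z b) ∂μ
        = ∑ b : E → Bool, ∫⁻ p, G p b ∂μ := fun Z => sum_lintegral_swap D Z G
    rw [Finset.sum_comm]
    simp_rw [hsw]
    rw [Finset.sum_const, Finset.card_univ, nsmul_eq_mul]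
  have hmain : N * ∑ b : E → Bool, ∫⁻ p, F p b ∂μ
      ≤ N * (C * ∑ b : E → Bool, ∫⁻ p, G p b ∂μ) := by
    rw [hF, mul_left_comm, hG', Finset.mul_sum]
    refine Finset.sum_le_sum fun b _ => ?_
    calc ∑ Z : Finset E, ∫⁻ p, F (swapPair Z p) (flipBits Z b) ∂μ
        ≤ ∫⁻ p, ∑ Z : Finset E, F (swapPair Z p) (flipBits Z b) ∂μ :=
          le_lintegral_finset_sum' μ _ _
      _ ≤ ∫⁻ p, C * ∑ Z : Finset E, G (swapPair Z p) (flipBits Z b) ∂μ :=
          lintegral_mono fun p => hpt p b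
      _ = C * ∫⁻ p, ∑ Z : Finset E, G (swapPair Z p) (flipBits Z b) ∂μ :=
          lintegral_const_mul' _ _ hC
      _ = C * ∑ Z : Finset E, ∫⁻ p, G (swapPair Z p) (flipBits Z b) ∂μ := by
          rw [lintegral_finsetSum]
          intro Z _
          exact (hG (flipBits Z b)).comp (measurable_swapPair Z)
  exact (ENNReal.mul_le_mul_iff_right hN0 hNt).mp hmain

/-- The rule with `L + 1` scales is competitive with ratio `1 / (4 * L + 10)` on every
matroid whose independent sets have at most `2 ^ L` elements. -/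
theorem scale_competitive (M : Matroid E) (k L : ℕ)
    (hk : ∀ I : Finset E, M.Indep (↑I : Set E) → I.card ≤ k) (hL : k ≤ 2 ^ L) :
    Competitive M (theRule M L) (1 / (4 * (L : ℝ≥0∞) + 10)) := by
  intro D hD adv hadv
  have := hD
  set μ := (Measure.pi D).prod (Measure.pi D) with hμ
  set a : ℝ≥0∞ := ∑ b : E → Bool,
    ∫⁻ p, (lowVal (nl M) keyVal (vkey p.2 b) (skey p.1 b) : ℝ≥0∞) ∂μ with ha
  set g : ℝ≥0∞ := ∑ j : Fin (L + 1), ∫⁻ p, (greedyVal M j p.1 p.2 : ℝ≥0∞) ∂μ with hg
  set O : ℝ≥0∞ := ∫⁻ p, (opt M p.2 : ℝ≥0∞) ∂μ with hO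
  set Nb : ℝ≥0∞ := (Fintype.card (E → Bool) : ℝ≥0∞) with hNb
  have hlowm : ∀ b : E → Bool, Measurable (fun p : (E → ℝ≥0) × (E → ℝ≥0) =>
      (lowVal (nl M) keyVal (vkey p.2 b) (skey p.1 b) : ℝ≥0∞)) :=
    fun b => measurable_coe_nnreal_ennreal.comp (measurable_lowVal M b)
  have hT : Measurable (fun p : (E → ℝ≥0) × (E → ℝ≥0) => (maxSample M p.1 : ℝ≥0∞)) :=
    measurable_coe_nnreal_ennreal.comp ((measurable_maxSample M).comp measurable_fst)
  have hGm : ∀ j : Fin (L + 1), Measurable (fun p : (E → ℝ≥0) × (E → ℝ≥0) =>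
      (greedyVal M j p.1 p.2 : ℝ≥0∞)) :=
    fun j => measurable_coe_nnreal_ennreal.comp (measurable_greedyVal M j)
  -- the expected optimum as an integral over samples and values
  have hF1 : expOpt M D = O := by
    unfold expOpt
    rw [hO]
    exact ((measurePreserving_snd (μ := Measure.pi D) (ν := Measure.pi D)).lintegral_comp
      (measurable_coe_nnreal_ennreal.comp (measurable_opt M))).symm
  -- symmetrization estimates
  have hF2 : ∑ b : E → Bool,
      ∫⁻ p, (topSum (nl M) keyVal (vkey p.2 b) (skey p.1 b) : ℝ≥0∞) ∂μ ≤ 2 * a := by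
    refine symmetrize D
      (fun p b => (topSum (nl M) keyVal (vkey p.2 b) (skey p.1 b) : ℝ≥0∞))
      (fun p b => (lowVal (nl M) keyVal (vkey p.2 b) (skey p.1 b) : ℝ≥0∞))
      2 (by norm_num) hlowm ?_
    intro p b
    obtain ⟨s, v⟩ := p
    simp only [vkey_swap, skey_swap]
    have := sum_topSum_le (nl M) keyVal (vkey v b) (skey s b)
    exact_mod_cast this
  have hF3 : ∑ b : E → Bool, ∫⁻ p, (maxSample M p.1 : ℝ≥0∞) ∂μ ≤ 3 * a := by
    refine symmetrize D
      (fun p _ => (maxSample M p.1 : ℝ≥0∞))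
      (fun p b => (lowVal (nl M) keyVal (vkey p.2 b) (skey p.1 b) : ℝ≥0∞))
      3 (by norm_num) hlowm ?_
    intro p b
    obtain ⟨s, v⟩ := p
    have h1 : ∀ Z : Finset E, maxSample M (swapPair Z (s, v)).1
        = maxS (nl M) keyVal (swS (vkey v b) (skey s b) Z) := by
      intro Z
      rw [← skey_swap]
      rfl
    simp only [vkey_swap, skey_swap, h1]
    have := sum_maxS_le (nl M) keyVal keyVal_monotone (vkey v b) (skey s b)
      (keys_distinct M s v b)
    exact_mod_cast this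
  -- the pointwise bound on the optimum, integrated
  have hF4 : ∀ b : E → Bool,
      O ≤ ∫⁻ p, (topSum (nl M) keyVal (vkey p.2 b) (skey p.1 b) : ℝ≥0∞) ∂μ
        + ∫⁻ p, (maxSample M p.1 : ℝ≥0∞) ∂μ + 2 * g := by
    intro b
    calc O ≤ ∫⁻ p, ((topSum (nl M) keyVal (vkey p.2 b) (skey p.1 b) : ℝ≥0∞)
          + ((maxSample M p.1 : ℝ≥0∞)
            + 2 * ∑ j : Fin (L + 1), (greedyVal M j p.1 p.2 : ℝ≥0∞))) ∂μ := by
          refine lintegral_mono fun p => ?_
          have h1 := opt_le_bound M L k hk hL p.1 p.2 b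
          have h2 : (opt M p.2 : ℝ≥0∞) ≤ ((topSum (nl M) keyVal (vkey p.2 b) (skey p.1 b)
              + maxSample M p.1 + 2 * ∑ j : Fin (L + 1), greedyVal M j p.1 p.2 : ℝ≥0) : ℝ≥0∞) :=
            ENNReal.coe_le_coe.mpr h1
          push_cast at h2
          rw [add_assoc] at h2
          exact h2
      _ = ∫⁻ p, (topSum (nl M) keyVal (vkey p.2 b) (skey p.1 b) : ℝ≥0∞) ∂μ
          + (∫⁻ p, (maxSample M p.1 : ℝ≥0∞) ∂μ + 2 * g) := by
          have hmeas : Measurable (fun p : (E → ℝ≥0) × (E → ℝ≥0) =>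
              (maxSample M p.1 : ℝ≥0∞)
                + 2 * ∑ j : Fin (L + 1), (greedyVal M j p.1 p.2 : ℝ≥0∞)) :=
            hT.add ((Finset.measurable_sum _ (fun j _ => hGm j)).const_mul 2)
          rw [lintegral_add_right _ hmeas, lintegral_add_left hT,
            lintegral_const_mul' _ _ (by norm_num), lintegral_finsetSum _ (fun j _ => hGm j)]
      _ = _ := by rw [add_assoc]
  have hF4' : Nb * O ≤ 5 * a + 2 * (Nb * g) := by
    calc Nb * O = ∑ _b : E → Bool, O := by
          rw [Finset.sum_const, Finset.card_univ, nsmul_eq_mul]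
      _ ≤ ∑ b : E → Bool,
          (∫⁻ p, (topSum (nl M) keyVal (vkey p.2 b) (skey p.1 b) : ℝ≥0∞) ∂μ
            + ∫⁻ p, (maxSample M p.1 : ℝ≥0∞) ∂μ + 2 * g) :=
          Finset.sum_le_sum fun b _ => hF4 b
      _ = ∑ b : E → Bool, ∫⁻ p, (topSum (nl M) keyVal (vkey p.2 b) (skey p.1 b) : ℝ≥0∞) ∂μ
          + ∑ _b : E → Bool, ∫⁻ p, (maxSample M p.1 : ℝ≥0∞) ∂μ + Nb * (2 * g) := by
          rw [Finset.sum_add_distrib, Finset.sum_add_distrib]
          congr 1
          rw [Finset.sum_const, Finset.card_univ, nsmul_eq_mul]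
      _ ≤ 2 * a + 3 * a + Nb * (2 * g) := add_le_add (add_le_add hF2 hF3) le_rfl
      _ = 5 * a + 2 * (Nb * g) := by ring
  -- the rule collects at least the two lower bounds
  have hF5 : ((L : ℝ≥0∞) + 1) * a + Nb * g
      ≤ ∑ r : (E → Bool) × Bool × Fin (L + 1),
        ∫⁻ p, (payoff M (theRule M L) p.1 r p.2 (adv p.1 p.2 r) : ℝ≥0∞) ∂μ := by
    rw [Fintype.sum_prod_type]
    simp_rw [Fintype.sum_prod_type, Fintype.sum_bool]
    calc ((L : ℝ≥0∞) + 1) * a + Nb * g
        = ∑ b : E → Bool, (∑ _j : Fin (L + 1),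
            ∫⁻ p, (lowVal (nl M) keyVal (vkey p.2 b) (skey p.1 b) : ℝ≥0∞) ∂μ
          + ∑ j : Fin (L + 1), ∫⁻ p, (greedyVal M j p.1 p.2 : ℝ≥0∞) ∂μ) := by
          rw [Finset.sum_add_distrib]
          congr 1
          · rw [ha, Finset.mul_sum]
            refine Finset.sum_congr rfl fun b _ => ?_
            rw [Finset.sum_const, Finset.card_univ, Fintype.card_fin, nsmul_eq_mul]
            push_cast
            rfl
          · rw [Finset.sum_const, Finset.card_univ, nsmul_eq_mul]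
      _ ≤ _ := by
          refine Finset.sum_le_sum fun b _ => ?_
          rw [← Finset.sum_add_distrib, ← Finset.sum_add_distrib]
          refine Finset.sum_le_sum fun j _ => add_le_add ?_ ?_
          · exact lintegral_mono fun p => ENNReal.coe_le_coe.mpr
              (lowVal_le_payoff M L p.1 p.2 b j _ (hadv.1 _ _ _))
          · exact lintegral_mono fun p => ENNReal.coe_le_coe.mpr
              (greedyVal_le_payoff M L p.1 p.2 b j _ (hadv.1 _ _ _))
  -- arithmetic
  have hcard : (Fintype.card ((E → Bool) × Bool × Fin (L + 1)) : ℝ≥0∞)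
      = Nb * (2 * ((L : ℝ≥0∞) + 1)) := by
    rw [Fintype.card_prod, Fintype.card_prod, Fintype.card_bool, Fintype.card_fin]
    push_cast
    rfl
  have hNb0 : Nb ≠ 0 := by
    rw [hNb]
    exact_mod_cast Fintype.card_ne_zero
  have hNbt : Nb ≠ ∞ := by
    rw [hNb]
    exact ENNReal.natCast_ne_top _
  have hkey : O * (Nb * (2 * ((L : ℝ≥0∞) + 1)))
      ≤ (((L : ℝ≥0∞) + 1) * a + Nb * g) * (4 * (L : ℝ≥0∞) + 10) := by
    have h10 : (10 : ℝ≥0∞) ≤ 4 * (L : ℝ≥0∞) + 10 := le_add_self
    have h4 : (4 : ℝ≥0∞) * ((L : ℝ≥0∞) + 1) ≤ 4 * (L : ℝ≥0∞) + 10 := by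
      have : (4 : ℝ≥0∞) * ((L : ℝ≥0∞) + 1) = 4 * (L : ℝ≥0∞) + 4 := by ring
      rw [this]
      exact add_le_add le_rfl (by norm_num)
    calc O * (Nb * (2 * ((L : ℝ≥0∞) + 1)))
        = 2 * ((L : ℝ≥0∞) + 1) * (Nb * O) := by ring
      _ ≤ 2 * ((L : ℝ≥0∞) + 1) * (5 * a + 2 * (Nb * g)) := by gcongr
      _ = 10 * (((L : ℝ≥0∞) + 1) * a) + 4 * ((L : ℝ≥0∞) + 1) * (Nb * g) := by ring
      _ ≤ (4 * (L : ℝ≥0∞) + 10) * (((L : ℝ≥0∞) + 1) * a)
          + (4 * (L : ℝ≥0∞) + 10) * (Nb * g) := by gcongr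
      _ = (((L : ℝ≥0∞) + 1) * a + Nb * g) * (4 * (L : ℝ≥0∞) + 10) := by ring
  unfold expAlg
  rw [hF1, hcard]
  have hd0 : Nb * (2 * ((L : ℝ≥0∞) + 1)) ≠ 0 := by
    refine mul_ne_zero hNb0 (mul_ne_zero (by norm_num) ?_)
    exact (lt_of_lt_of_le zero_lt_one le_add_self).ne'
  have hdt : Nb * (2 * ((L : ℝ≥0∞) + 1)) ≠ ∞ := by
    refine ENNReal.mul_ne_top hNbt (ENNReal.mul_ne_top (by norm_num) ?_)
    exact ENNReal.add_ne_top.mpr ⟨ENNReal.natCast_ne_top _, by norm_num⟩
  rw [one_div, mul_comm, ← div_eq_mul_inv]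
  refine ENNReal.div_le_of_le_mul ?_
  rw [mul_assoc, mul_comm, ← div_eq_mul_inv]
  rw [ENNReal.le_div_iff_mul_le (Or.inl hd0) (Or.inl hdt)]
  calc O * (Nb * (2 * ((L : ℝ≥0∞) + 1)))
      ≤ (((L : ℝ≥0∞) + 1) * a + Nb * g) * (4 * (L : ℝ≥0∞) + 10) := hkey
    _ ≤ _ := by gcongr

/-- Every finite matroid of rank at most `k` has a measurable single-sample rule that is
`1 / (4 * clog 2 k + 10)`-competitive against the almighty adversary. -/
theorem logRank_competitive (M : Matroid E) (k : ℕ)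
    (hk : ∀ I : Finset E, M.Indep (↑I : Set E) → I.card ≤ k) :
    ∃ (R : Type) (_ : Fintype R) (_ : Nonempty R) (rule : OnlineRule E R),
      IsMeasurableRule rule ∧
        Competitive M rule (1 / (4 * (Nat.clog 2 k : ℝ≥0∞) + 10)) :=
  ⟨(E → Bool) × Bool × Fin (Nat.clog 2 k + 1), inferInstance, inferInstance,
    theRule M (Nat.clog 2 k), theRule_measurable M _,
    scale_competitive M k (Nat.clog 2 k) hk (Nat.le_pow_clog (by norm_num) k)⟩

end Main

end Vale.Agent.H89.P331
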