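import Mathlib

/-!
Model of the single-sample matroid prophet problem against the almighty adversary
(problem P331): online rules with a finite uniformly distributed seed, arrival orders
chosen by an adversary who sees samples, values and seed, and the competitive ratio.
-/

namespace Vale.Agent.H89.P331

open MeasureTheory
open scoped NNReal ENNReal

/-- An online rule on ground set `E` with seed type `R`.  When a new element arrives,
`accept s r h A` is the decision (accept or reject) for it, where `s` is the vector of
samples, `r` the seed, `h` the list of the elements that have arrived so far together with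
their values (newest first, so the new element is the head of `h`), and `A` the set accepted
so far. -/
structure OnlineRule (E : Type) (R : Type) where
  accept : (E → ℝ≥0) → R → List (E × ℝ≥0) → Finset E → Bool

variable {E R : Type}

/-- One arrival.  The state is the pair (arrivals so far with their values, accepted set);
element `e` arrives with value `v e` and is accepted iff the rule accepts it and the accepted
set stays independent in the matroid `M`.  The decision is irrevocable. -/
noncomputable def arrive (M : Matroid E) (rule : OnlineRule E R) (s : E → ℝ≥0) (r : R)
    (v : E → ℝ≥0) (st : List (E × ℝ≥0) × Finset E) (e : E) : List (E × ℝ≥0) × Finset E :=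
  open Classical in
  if rule.accept s r ((e, v e) :: st.1) st.2 = true ∧ M.Indep (↑(insert e st.2) : Set E) then
    ((e, v e) :: st.1, insert e st.2)
  else ((e, v e) :: st.1, st.2)

/-- Total value accepted by the rule when the elements arrive in the order `order`. -/
noncomputable def payoff (M : Matroid E) (rule : OnlineRule E R) (s : E → ℝ≥0) (r : R)
    (v : E → ℝ≥0) (order : List E) : ℝ≥0 :=
  ∑ e ∈ (order.foldl (arrive M rule s r v) ([], ∅)).2, v e

/-- The offline optimum: the largest total value of an independent set. -/
noncomputable def opt [Fintype E] (M : Matroid E) (v : E → ℝ≥0) : ℝ≥0 :=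
  open Classical in
  (Finset.univ.filter fun I : Finset E => M.Indep (↑I : Set E)).sup fun I => ∑ e ∈ I, v e

/-- An arrival order lists every element exactly once. -/
def IsArrivalOrder (l : List E) : Prop := l.Nodup ∧ ∀ e, e ∈ l

/-- An almighty adversary: a measurable choice of the arrival order as a function of the
samples, the values and the seed (it is quantified after the matroid and the laws, so it may
depend on them as well). -/
def IsAdversary (adv : (E → ℝ≥0) → (E → ℝ≥0) → R → List E) : Prop :=
  (∀ s v r, IsArrivalOrder (adv s v r)) ∧
    ∀ (r : R) (l : List E), MeasurableSet {p : (E → ℝ≥0) × (E → ℝ≥0) | adv p.1 p.2 r = l}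

/-- The rule is a measurable procedure: for every seed, every sequence `l` of arrived
elements and every accepted set, the decision is a measurable function of the samples and
the values. -/
def IsMeasurableRule (rule : OnlineRule E R) : Prop :=
  ∀ (r : R) (l : List E) (A : Finset E),
    Measurable fun p : (E → ℝ≥0) × (E → ℝ≥0) =>
      rule.accept p.1 r (l.map fun e => (e, p.2 e)) A

/-- Expected value accepted by the rule against the adversary `adv`: samples `s` and values
`v` are independent with `s e` and `v e` of law `D e`, and the seed is independent of them
and uniform on the finite type `R`. -/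
noncomputable def expAlg [Fintype E] [Fintype R] (M : Matroid E) (rule : OnlineRule E R)
    (D : E → Measure ℝ≥0) (adv : (E → ℝ≥0) → (E → ℝ≥0) → R → List E) : ℝ≥0∞ :=
  (Fintype.card R : ℝ≥0∞)⁻¹ * ∑ r : R,
    ∫⁻ p : (E → ℝ≥0) × (E → ℝ≥0), (payoff M rule p.1 r p.2 (adv p.1 p.2 r) : ℝ≥0∞)
      ∂((Measure.pi D).prod (Measure.pi D))

/-- Expected offline optimum of the values. -/
noncomputable def expOpt [Fintype E] (M : Matroid E) (D : E → Measure ℝ≥0) : ℝ≥0∞ :=
  ∫⁻ v : E → ℝ≥0, (opt M v : ℝ≥0∞) ∂(Measure.pi D)

/-- The rule is `c`-competitive against the almighty adversary with one sample per element: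
for all laws and all adversaries its expected value is at least `c` times the expected
optimum. -/
def Competitive [Fintype E] [Fintype R] (M : Matroid E) (rule : OnlineRule E R)
    (c : ℝ≥0∞) : Prop :=
  ∀ D : E → Measure ℝ≥0, (∀ e, IsProbabilityMeasure (D e)) →
    ∀ adv : (E → ℝ≥0) → (E → ℝ≥0) → R → List E, IsAdversary adv →
      c * expOpt M D ≤ expAlg M rule D adv

end Vale.Agent.H89.P331
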