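import Vale.Agent.H89.P331.Model
import Vale.Agent.H89.P331.Coins

/-!
The concrete rule: with a fair coin either wait for a value that beats every sample
(ties broken by the seed), or accept greedily every value above a random power-of-two
fraction of the largest sample.
-/

namespace Vale.Agent.H89.P331

open MeasureTheory Finset
open scoped NNReal ENNReal

section Rule

open Classical

variable {E : Type} [Fintype E]

/-- The elements that are not loops. -/
noncomputable def nl (M : Matroid E) : Finset E :=
  open Classical in Finset.univ.filter fun e => M.Indep ({e} : Set E)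

/-- An injective numbering of the elements. -/
noncomputable def idx (e : E) : ℕ := (Fintype.equivFin E e : ℕ)

theorem idx_injective : Function.Injective (idx : E → ℕ) := by
  intro a b h
  unfold idx at h
  exact (Fintype.equivFin E).injective (Fin.ext h)

/-- Keys: value, then number of the element, then a bit. -/
abbrev Key : Type := ℝ≥0 ×ₗ ℕ ×ₗ Bool

/-- The value of a key. -/
def keyVal (k : Key) : ℝ≥0 := (ofLex k).1

theorem keyVal_monotone : Monotone keyVal := by
  intro a b hab
  unfold keyVal
  rcases Prod.Lex.le_iff.mp hab with h | h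
  · exact le_of_lt h
  · exact le_of_eq h.1

/-- Key of the value of `e`. -/
noncomputable def vkey (v : E → ℝ≥0) (b : E → Bool) (e : E) : Key :=
  toLex (v e, toLex (idx e, b e))

/-- Key of the sample of `e`. -/
noncomputable def skey (s : E → ℝ≥0) (b : E → Bool) (e : E) : Key :=
  toLex (s e, toLex (idx e, !b e))

/-- The largest sample of a non-loop. -/
noncomputable def maxSample (M : Matroid E) (s : E → ℝ≥0) : ℝ≥0 := (nl M).sup s

/-- The rule.  Seed: tie-breaking bits, a mode bit, and a scale `j`. -/
noncomputable def theRule (M : Matroid E) (L : ℕ) :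
    OnlineRule E ((E → Bool) × Bool × Fin (L + 1)) where
  accept s r h A :=
    match h with
    | [] => false
    | (e, x) :: _ =>
      open Classical in
      if r.2.1 = true then
        decide (A = ∅ ∧ e ∈ nl M ∧
          ∀ f ∈ nl M, skey s r.1 f < (toLex (x, toLex (idx e, r.1 e)) : Key))
      else
        decide (maxSample M s ≤ 2 ^ (r.2.2 : ℕ) * x)

/-! ### Mode one: wait for a value beating all samples -/

theorem run_mode_one_nonempty (M : Matroid E) (L : ℕ) (s v : E → ℝ≥0) (b : E → Bool)
    (j : Fin (L + 1)) (todo : List E) :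
    ∀ st : List (E × ℝ≥0) × Finset E, st.2.Nonempty →
      (todo.foldl (arrive M (theRule M L) s (b, true, j) v) st).2 = st.2 := by
  induction todo with
  | nil => intro st _; rfl
  | cons e rest ih =>
    intro st hA
    have hne : st.2 ≠ ∅ := Finset.nonempty_iff_ne_empty.mp hA
    have hacc : (theRule M L).accept s (b, true, j) ((e, v e) :: st.1) st.2 = false := by
      simp [theRule, hne]
    have hstep : arrive M (theRule M L) s (b, true, j) v st e = ((e, v e) :: st.1, st.2) := by
      unfold arrive
      simp only [hacc, Bool.false_eq_true, false_and, if_false]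
    rw [List.foldl_cons, hstep]
    exact ih _ hA

theorem run_mode_one (M : Matroid E) (L : ℕ) (s v : E → ℝ≥0) (b : E → Bool)
    (j : Fin (L + 1)) (todo : List E) :
    ∀ st : List (E × ℝ≥0) × Finset E, st.2 = ∅ →
      (∃ e ∈ todo, e ∈ topSet (nl M) (vkey v b) (skey s b) ∧
        (todo.foldl (arrive M (theRule M L) s (b, true, j) v) st).2 = {e}) ∨
      ((∀ e ∈ todo, e ∉ topSet (nl M) (vkey v b) (skey s b)) ∧
        (todo.foldl (arrive M (theRule M L) s (b, true, j) v) st).2 = ∅) := by
  induction todo with
  | nil => intro st hst; right; exact ⟨by simp, hst⟩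
  | cons e rest ih =>
    intro st hst
    by_cases hgood : e ∈ topSet (nl M) (vkey v b) (skey s b)
    · left
      refine ⟨e, List.mem_cons_self, hgood, ?_⟩
      have hg := mem_topSet.mp hgood
      have hacc : (theRule M L).accept s (b, true, j) ((e, v e) :: st.1) st.2 = true := by
        simp only [theRule, if_true, decide_eq_true_eq]
        exact ⟨hst, hg.1, fun f hf => hg.2 f hf⟩
      have hind : M.Indep (↑(insert e st.2) : Set E) := by
        have : e ∈ nl M := hg.1
        unfold nl at this
        rw [hst]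
        simpa using (Finset.mem_filter.mp this).2
      have hstep : arrive M (theRule M L) s (b, true, j) v st e
          = ((e, v e) :: st.1, insert e st.2) := by
        unfold arrive
        rw [if_pos ⟨hacc, hind⟩]
      rw [List.foldl_cons, hstep, run_mode_one_nonempty M L s v b j rest _
        (Finset.insert_nonempty _ _), hst]
      rfl
    · have hacc : (theRule M L).accept s (b, true, j) ((e, v e) :: st.1) st.2 = false := by
        simp only [theRule, if_true, decide_eq_false_iff_not]
        intro hcon
        exact hgood (mem_topSet.mpr ⟨hcon.2.1, fun f hf => hcon.2.2 f hf⟩)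
      have hstep : arrive M (theRule M L) s (b, true, j) v st e = ((e, v e) :: st.1, st.2) := by
        unfold arrive
        simp only [hacc, Bool.false_eq_true, false_and, if_false]
      rw [List.foldl_cons, hstep]
      rcases ih ((e, v e) :: st.1, st.2) hst with ⟨e', he', hg', hr'⟩ | ⟨hall, hr'⟩
      · left; exact ⟨e', List.mem_cons_of_mem _ he', hg', hr'⟩
      · right
        refine ⟨fun x hx => ?_, hr'⟩
        rcases List.mem_cons.mp hx with rfl | hx
        · exact hgood
        · exact hall x hx

theorem vkey_injective (v : E → ℝ≥0) (b : E → Bool) : Function.Injective (vkey v b) := by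
  intro x y h
  unfold vkey at h
  have h1 := congrArg (fun k : Key => (ofLex (ofLex k).2).1) h
  exact idx_injective (by simpa using h1)

theorem lowVal_le_payoff (M : Matroid E) (L : ℕ) (s v : E → ℝ≥0) (b : E → Bool)
    (j : Fin (L + 1)) (order : List E) (hord : IsArrivalOrder order) :
    lowVal (nl M) keyVal (vkey v b) (skey s b)
      ≤ payoff M (theRule M L) s (b, true, j) v order := by
  unfold payoff
  rcases run_mode_one M L s v b j order ([], ∅) rfl with ⟨e, _, hg, hr⟩ | ⟨hall, hr⟩
  · rw [hr, Finset.sum_singleton]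
    have := lowVal_le (nl M) keyVal keyVal_monotone (vkey v b) (skey s b)
      (fun x _ y _ h => vkey_injective v b h) e hg
    simpa [keyVal, vkey] using this
  · rw [hr, Finset.sum_empty]
    have h0 : lowVal (nl M) keyVal (vkey v b) (skey s b) = 0 :=
      lowVal_eq_zero _ _ _ _ (fun e _ => hall e (hord.2 e))
    rw [h0]

/-! ### Mode two: greedy above a threshold -/

theorem run_mode_two (M : Matroid E) (L : ℕ) (s v : E → ℝ≥0) (b : E → Bool)
    (j : Fin (L + 1)) (todo : List E) :
    ∀ (st : List (E × ℝ≥0) × Finset E) (P : E → Prop),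
      M.Indep (↑st.2 : Set E) → (∀ e ∈ st.2, maxSample M s ≤ 2 ^ (j : ℕ) * v e) →
      (∀ e, P e → maxSample M s ≤ 2 ^ (j : ℕ) * v e → e ∉ st.2 →
        ¬ M.Indep (↑(insert e st.2) : Set E)) →
      M.Indep (↑(todo.foldl (arrive M (theRule M L) s (b, false, j) v) st).2 : Set E) ∧
      (∀ e ∈ (todo.foldl (arrive M (theRule M L) s (b, false, j) v) st).2,
        maxSample M s ≤ 2 ^ (j : ℕ) * v e) ∧
      (∀ e, (e ∈ todo ∨ P e) → maxSample M s ≤ 2 ^ (j : ℕ) * v e →
        e ∉ (todo.foldl (arrive M (theRule M L) s (b, false, j) v) st).2 →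
        ¬ M.Indep (↑(insert e (todo.foldl (arrive M (theRule M L) s (b, false, j) v) st).2)
          : Set E)) := by
  induction todo with
  | nil =>
    intro st P hA hthr hmax
    refine ⟨hA, hthr, fun e he => ?_⟩
    rcases he with he | he
    · simp at he
    · exact hmax e he
  | cons e rest ih =>
    intro st P hA hthr hmax
    have hacc : (theRule M L).accept s (b, false, j) ((e, v e) :: st.1) st.2
        = decide (maxSample M s ≤ 2 ^ (j : ℕ) * v e) := by
      simp [theRule]
    by_cases hc : maxSample M s ≤ 2 ^ (j : ℕ) * v e ∧ M.Indep (↑(insert e st.2) : Set E)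
    · have hstep : arrive M (theRule M L) s (b, false, j) v st e
          = ((e, v e) :: st.1, insert e st.2) := by
        unfold arrive
        rw [hacc, if_pos ⟨by simpa using hc.1, hc.2⟩]
      rw [List.foldl_cons, hstep]
      have hthr' : ∀ x ∈ insert e st.2, maxSample M s ≤ 2 ^ (j : ℕ) * v x := by
        intro x hx
        rcases Finset.mem_insert.mp hx with rfl | hx
        · exact hc.1
        · exact hthr x hx
      have hmax' : ∀ x, (x = e ∨ P x) → maxSample M s ≤ 2 ^ (j : ℕ) * v x →
          x ∉ insert e st.2 → ¬ M.Indep (↑(insert x (insert e st.2)) : Set E) := by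
        intro x hx hxthr hxA hind
        have hxe : x ≠ e := fun h => hxA (h ▸ Finset.mem_insert_self _ _)
        have hxA' : x ∉ st.2 := fun h => hxA (Finset.mem_insert_of_mem h)
        have hxP : P x := by
          rcases hx with h | h
          · exact absurd h hxe
          · exact h
        apply hmax x hxP hxthr hxA'
        exact hind.subset (Finset.coe_subset.mpr
          (Finset.insert_subset_insert x (Finset.subset_insert e st.2)))
      obtain ⟨h1, h2, h3⟩ := ih ((e, v e) :: st.1, insert e st.2) (fun x => x = e ∨ P x)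
        hc.2 hthr' hmax'
      refine ⟨h1, h2, fun x hx => h3 x ?_⟩
      rcases hx with hx | hx
      · rcases List.mem_cons.mp hx with rfl | hx
        · right; left; rfl
        · left; exact hx
      · right; right; exact hx
    · have hstep : arrive M (theRule M L) s (b, false, j) v st e = ((e, v e) :: st.1, st.2) := by
        unfold arrive
        rw [hacc]
        have : ¬ (decide (maxSample M s ≤ 2 ^ (j : ℕ) * v e) = true
            ∧ M.Indep (↑(insert e st.2) : Set E)) := by
          simpa using hc
        rw [if_neg this]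
      rw [List.foldl_cons, hstep]
      have hmax' : ∀ x, (x = e ∨ P x) → maxSample M s ≤ 2 ^ (j : ℕ) * v x → x ∉ st.2 →
          ¬ M.Indep (↑(insert x st.2) : Set E) := by
        intro x hx hxthr hxA
        rcases hx with rfl | hx
        · exact fun hind => hc ⟨hxthr, hind⟩
        · exact hmax x hx hxthr hxA
      obtain ⟨h1, h2, h3⟩ := ih ((e, v e) :: st.1, st.2) (fun x => x = e ∨ P x) hA hthr hmax'
      refine ⟨h1, h2, fun x hx => h3 x ?_⟩
      rcases hx with hx | hx
      · rcases List.mem_cons.mp hx with rfl | hx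
        · right; left; rfl
        · left; exact hx
      · right; right; exact hx

/-- Lower bound for the greedy mode: the largest number of independent elements above the
threshold, times the threshold. -/
noncomputable def greedyVal (M : Matroid E) (j : ℕ) (s v : E → ℝ≥0) : ℝ≥0 :=
  open Classical in
  (Finset.univ.filter fun I : Finset E =>
      M.Indep (↑I : Set E) ∧ ∀ e ∈ I, maxSample M s ≤ 2 ^ j * v e).sup
    fun I => (I.card : ℝ≥0) * (maxSample M s / 2 ^ j)

theorem greedyVal_le_payoff (M : Matroid E) (L : ℕ) (s v : E → ℝ≥0) (b : E → Bool)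
    (j : Fin (L + 1)) (order : List E) (hord : IsArrivalOrder order) :
    greedyVal M j s v ≤ payoff M (theRule M L) s (b, false, j) v order := by
  classical
  unfold greedyVal
  refine Finset.sup_le fun I hI => ?_
  rw [Finset.mem_filter] at hI
  obtain ⟨h1, h2, h3⟩ := run_mode_two M L s v b j order ([], ∅) (fun _ => False)
    (by simp) (by simp) (by simp)
  set A := (order.foldl (arrive M (theRule M L) s (b, false, j) v) ([], ∅)).2 with hAdef
  have hcard : I.card ≤ A.card := by
    by_contra hlt
    rw [not_le] at hlt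
    obtain ⟨e, heI, heA, hins⟩ := h1.augment_finset hI.2.1 hlt
    refine h3 e (Or.inl (hord.2 e)) (hI.2.2 e heI) heA ?_
    rwa [Finset.coe_insert]
  have hpos : (0 : ℝ≥0) < 2 ^ (j : ℕ) := by positivity
  unfold payoff
  rw [← hAdef]
  calc (I.card : ℝ≥0) * (maxSample M s / 2 ^ (j : ℕ))
      ≤ (A.card : ℝ≥0) * (maxSample M s / 2 ^ (j : ℕ)) := by
        gcongr
    _ = ∑ e ∈ A, maxSample M s / 2 ^ (j : ℕ) := by
        rw [Finset.sum_const, nsmul_eq_mul]
    _ ≤ ∑ e ∈ A, v e := by
        refine Finset.sum_le_sum fun e he => ?_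
        rw [div_le_iff₀ hpos, mul_comm]
        exact h2 e he

/-! ### The pointwise bound on the optimum -/

theorem scale_exists (T x : ℝ≥0) (L : ℕ) (h1 : x ≤ T) (h2 : T ≤ 2 ^ L * x) :
    ∃ j : Fin (L + 1), T ≤ 2 ^ (j : ℕ) * x ∧ x ≤ 2 * (T / 2 ^ (j : ℕ)) := by
  have hex : ∃ j : ℕ, T ≤ 2 ^ j * x := ⟨L, h2⟩
  have hle : Nat.find hex ≤ L := Nat.find_min' hex h2
  refine ⟨⟨Nat.find hex, Nat.lt_succ_of_le hle⟩, Nat.find_spec hex, ?_⟩
  simp only
  rcases Nat.eq_zero_or_pos (Nat.find hex) with h0 | hpos
  · rw [h0]
    simp only [pow_zero, div_one]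
    calc x ≤ T := h1
      _ ≤ 2 * T := by
        have : (1 : ℝ≥0) ≤ 2 := by norm_num
        calc T = 1 * T := (one_mul T).symm
          _ ≤ 2 * T := by gcongr
  · obtain ⟨m, hm⟩ : ∃ m, Nat.find hex = m + 1 := ⟨Nat.find hex - 1, by omega⟩
    have hnot : ¬ T ≤ 2 ^ m * x := Nat.find_min hex (by omega)
    rw [not_le] at hnot
    rw [hm]
    have hpow : (0 : ℝ≥0) < 2 ^ (m + 1) := by positivity
    have h3 : 2 * (T / 2 ^ (m + 1)) = T / 2 ^ m := by
      rw [pow_succ]
      field_simp
    rw [h3, le_div_iff₀ (by positivity), mul_comm]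
    exact le_of_lt hnot

theorem opt_le_bound (M : Matroid E) (L k : ℕ)
    (hk : ∀ I : Finset E, M.Indep (↑I : Set E) → I.card ≤ k) (hL : k ≤ 2 ^ L)
    (s v : E → ℝ≥0) (b : E → Bool) :
    opt M v ≤ topSum (nl M) keyVal (vkey v b) (skey s b) + maxSample M s
      + 2 * ∑ j : Fin (L + 1), greedyVal M j s v := by
  unfold opt
  refine Finset.sup_le fun I hI => ?_
  rw [Finset.mem_filter] at hI
  have hIind := hI.2
  set T := maxSample M s with hT
  -- high part
  have hhi : ∑ e ∈ I.filter (fun e => T < v e), v e
      ≤ topSum (nl M) keyVal (vkey v b) (skey s b) := by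
    unfold topSum
    have hsub : I.filter (fun e => T < v e) ⊆ topSet (nl M) (vkey v b) (skey s b) := by
      intro e he
      rw [Finset.mem_filter] at he
      refine mem_topSet.mpr ⟨?_, fun f hf => ?_⟩
      · unfold nl
        rw [Finset.mem_filter]
        refine ⟨Finset.mem_univ _, hIind.subset ?_⟩
        simpa using he.1
      · unfold skey vkey
        refine Prod.Lex.toLex_lt_toLex.mpr (Or.inl ?_)
        exact lt_of_le_of_lt (Finset.le_sup (f := s) hf) he.2
    exact Finset.sum_le_sum_of_subset hsub
  -- low part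
  have hlo : ∑ e ∈ (I.filter (fun e => ¬ T < v e)).filter (fun e => ¬ T ≤ 2 ^ L * v e), v e
      ≤ T := by
    set J := (I.filter (fun e => ¬ T < v e)).filter (fun e => ¬ T ≤ 2 ^ L * v e) with hJ
    have hpow : (0 : ℝ≥0) < 2 ^ L := by positivity
    have h1 : ∀ e ∈ J, v e ≤ T / 2 ^ L := by
      intro e he
      rw [hJ, Finset.mem_filter] at he
      rw [le_div_iff₀ hpow, mul_comm]
      exact le_of_lt (not_le.mp he.2)
    have hcard : (J.card : ℝ≥0) ≤ 2 ^ L := by
      have h2 : J.card ≤ I.card :=
        Finset.card_le_card ((Finset.filter_subset _ _).trans (Finset.filter_subset _ _))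
      have h3 : J.card ≤ 2 ^ L := h2.trans ((hk I hIind).trans hL)
      exact_mod_cast h3
    calc ∑ e ∈ J, v e ≤ ∑ e ∈ J, T / 2 ^ L := Finset.sum_le_sum h1
      _ = (J.card : ℝ≥0) * (T / 2 ^ L) := by rw [Finset.sum_const, nsmul_eq_mul]
      _ ≤ 2 ^ L * (T / 2 ^ L) := by gcongr
      _ = T := by field_simp
  -- middle part
  have hmid : ∑ e ∈ (I.filter (fun e => ¬ T < v e)).filter (fun e => T ≤ 2 ^ L * v e), v e
      ≤ 2 * ∑ j : Fin (L + 1), greedyVal M j s v := by
    set J := (I.filter (fun e => ¬ T < v e)).filter (fun e => T ≤ 2 ^ L * v e) with hJ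
    have hex : ∀ e ∈ J, ∃ j : Fin (L + 1), T ≤ 2 ^ (j : ℕ) * v e ∧ v e ≤ 2 * (T / 2 ^ (j : ℕ)) := by
      intro e he
      rw [hJ, Finset.mem_filter, Finset.mem_filter] at he
      exact scale_exists T (v e) L (not_lt.mp he.1.2) he.2
    let jf : E → Fin (L + 1) := fun e =>
      if h : ∃ j : Fin (L + 1), T ≤ 2 ^ (j : ℕ) * v e ∧ v e ≤ 2 * (T / 2 ^ (j : ℕ)) then
        Classical.choose h else 0
    have hjf : ∀ e ∈ J, T ≤ 2 ^ (jf e : ℕ) * v e ∧ v e ≤ 2 * (T / 2 ^ (jf e : ℕ)) := by
      intro e he
      have h := hex e he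
      simp only [jf, dif_pos h]
      exact Classical.choose_spec h
    calc ∑ e ∈ J, v e ≤ ∑ e ∈ J, 2 * (T / 2 ^ (jf e : ℕ)) :=
          Finset.sum_le_sum fun e he => (hjf e he).2
      _ = ∑ j : Fin (L + 1), ∑ e ∈ J.filter (fun e => jf e = j), 2 * (T / 2 ^ (jf e : ℕ)) :=
          (Finset.sum_fiberwise J jf _).symm
      _ ≤ ∑ j : Fin (L + 1), 2 * greedyVal M j s v := by
          refine Finset.sum_le_sum fun j _ => ?_
          have h1 : ∑ e ∈ J.filter (fun e => jf e = j), 2 * (T / 2 ^ (jf e : ℕ))
              = ∑ e ∈ J.filter (fun e => jf e = j), 2 * (T / 2 ^ (j : ℕ)) := by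
            refine Finset.sum_congr rfl fun e he => ?_
            rw [(Finset.mem_filter.mp he).2]
          rw [h1, Finset.sum_const, nsmul_eq_mul]
          have h2 : ((J.filter (fun e => jf e = j)).card : ℝ≥0) * (T / 2 ^ (j : ℕ))
              ≤ greedyVal M j s v := by
            unfold greedyVal
            refine Finset.le_sup (f := fun I : Finset E => (I.card : ℝ≥0) * (T / 2 ^ (j : ℕ))) ?_
            rw [Finset.mem_filter]
            refine ⟨Finset.mem_univ _, hIind.subset ?_, fun e he => ?_⟩
            · exact Finset.coe_subset.mpr ((Finset.filter_subset _ _).trans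
                ((Finset.filter_subset _ _).trans (Finset.filter_subset _ _)))
            · rw [Finset.mem_filter] at he
              have := (hjf e he.1).1
              rwa [he.2] at this
          calc ((J.filter (fun e => jf e = j)).card : ℝ≥0) * (2 * (T / 2 ^ (j : ℕ)))
              = 2 * (((J.filter (fun e => jf e = j)).card : ℝ≥0) * (T / 2 ^ (j : ℕ))) := by ring
            _ ≤ 2 * greedyVal M j s v := by gcongr
      _ = 2 * ∑ j : Fin (L + 1), greedyVal M j s v := by rw [Finset.mul_sum]
  calc ∑ e ∈ I, v e
      = ∑ e ∈ I.filter (fun e => T < v e), v e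
        + ∑ e ∈ I.filter (fun e => ¬ T < v e), v e :=
        (Finset.sum_filter_add_sum_filter_not I _ _).symm
    _ = ∑ e ∈ I.filter (fun e => T < v e), v e
        + (∑ e ∈ (I.filter (fun e => ¬ T < v e)).filter (fun e => T ≤ 2 ^ L * v e), v e
          + ∑ e ∈ (I.filter (fun e => ¬ T < v e)).filter (fun e => ¬ T ≤ 2 ^ L * v e), v e) := by
        rw [Finset.sum_filter_add_sum_filter_not (I.filter (fun e => ¬ T < v e))]
    _ ≤ topSum (nl M) keyVal (vkey v b) (skey s b)
        + (2 * ∑ j : Fin (L + 1), greedyVal M j s v + T) :=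
        add_le_add hhi (add_le_add hmid hlo)
    _ = topSum (nl M) keyVal (vkey v b) (skey s b) + T
        + 2 * ∑ j : Fin (L + 1), greedyVal M j s v := by ring

end Rule

end Vale.Agent.H89.P331
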